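import Vale.Agent.P120.Transfer

namespace Vale.Agent.Results.P120.AmbientMono

open Vale.Agent.P120

/-- The David-Semmes statement Q1 for `n`-dimensional measures is monotone in the ambient dimension:
if it holds in `ℝ^d'` then it holds in `ℝ^d` for every `d ≤ d'`. -/
theorem result (n d d' : ℕ) (hd : d ≤ d') (h : DavidSemmes n d') : DavidSemmes n d := by
  obtain ⟨r, rfl⟩ := Nat.exists_eq_add_of_le hd
  exact davidSemmes_mono n d r h

end Vale.Agent.Results.P120.AmbientMono
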